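import Vale.Agent.P254.SP.IfaceA
import Vale.Agent.P254.SP.H620.DK
import Vale.Agent.P254.S.H130.En

/-!
# P254, (SP_0): `StmtEN → StmtMA`

the energy inequality with the spectral weight `t(G)²` and the full slack.
-/

open MeasureTheory Matrix Finset Filter Topology

noncomputable section

namespace Vale.Agent.P254.SP130

open Vale.Agent.P227.M Vale.Agent.P254.S Vale.Agent.P254.S130 Vale.Agent.P254.SP

variable (P : F1)

/-- derivative of `g` -/
def g' (x : ℝ) : ℝ := (P.L' (P.g x))⁻¹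

lemma g_cont : ContinuousOn P.g (Set.Ioi 0) := P.g_concave.continuousOn isOpen_Ioi

lemma hasDeriv_g {x : ℝ} (hx : 0 < x) : HasDerivAt P.g (g' P x) x := by
  refine HasDerivAt.of_local_left_inverse ((g_cont P).continuousAt (Ioi_mem_nhds hx))
    (P.hL (P.g x)) (P.L'_pos _).ne' ?_
  filter_upwards [Ioi_mem_nhds hx] with y hy
  exact P.L_g y hy

lemma g'_cont : ContinuousOn (g' P) (Set.Ioi 0) :=
  (P.L'_cont.comp_continuousOn (g_cont P)).inv₀ fun _ _ => (P.L'_pos _).ne'

lemma g'_L (x : ℝ) : g' P (P.L x) = (P.L' x)⁻¹ := by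
  unfold g'
  rw [P.g_L]

lemma L_inj {x y : ℝ} (h : P.L x = P.L y) : x = y := by
  rw [← P.g_L x, ← P.g_L y, h]

lemma r_cont : Continuous P.r := continuous_iff_continuousAt.2 fun s => (P.hr s).continuousAt

lemma r'_cont : Continuous P.r' := continuous_iff_continuousAt.2 fun s => (P.hr' s).continuousAt

/-- `q(m) = m r(g m)²` -/
def q (x : ℝ) : ℝ := x * P.r (P.g x) ^ 2

/-- derivative of `q` -/
def q' (x : ℝ) : ℝ := P.r (P.g x) ^ 2 + x * (2 * P.r (P.g x) * (P.r' (P.g x) * g' P x))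

/-- `r(g m)` -/
def rg (x : ℝ) : ℝ := P.r (P.g x)

/-- derivative of `rg` -/
def rg' (x : ℝ) : ℝ := P.r' (P.g x) * g' P x

lemma hasDeriv_rg {x : ℝ} (hx : 0 < x) : HasDerivAt (rg P) (rg' P x) x :=
  (P.hr (P.g x)).comp x (hasDeriv_g P hx)

lemma rg'_cont : ContinuousOn (rg' P) (Set.Ioi 0) :=
  ((r'_cont P).comp_continuousOn (g_cont P)).mul (g'_cont P)

lemma hasDeriv_q {x : ℝ} (hx : 0 < x) : HasDerivAt (q P) (q' P x) x := by
  have h1 := (hasDerivAt_id' x).fun_mul ((hasDeriv_rg P hx).fun_pow 2)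
  refine h1.congr_deriv ?_
  unfold q' rg rg'
  norm_num

lemma rg_cont : ContinuousOn (rg P) (Set.Ioi 0) := (r_cont P).comp_continuousOn (g_cont P)

lemma q'_cont : ContinuousOn (q' P) (Set.Ioi 0) := by
  have h1 := rg_cont P
  have h2 := rg'_cont P
  have e : q' P = fun x => rg P x ^ 2 + x * (2 * rg P x * rg' P x) := rfl
  rw [e]
  exact (h1.pow 2).add (continuousOn_id.mul ((continuousOn_const.mul h1).mul h2))

lemma q'_mono : MonotoneOn (q' P) (Set.Ioi 0) := by
  have h1 : ConvexOn ℝ (Set.Ioi 0) (q P) := P.q_convex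
  have h2 := h1.monotoneOn_deriv fun x hx => (hasDeriv_q P hx).differentiableAt
  intro x hx y hy hxy
  have := h2 hx hy hxy
  rwa [(hasDeriv_q P hx).deriv, (hasDeriv_q P hy).deriv] at this

lemma q_nonneg {x : ℝ} (hx : 0 < x) : 0 ≤ q P x := mul_nonneg hx.le (sq_nonneg _)

lemma dd_rg (x y : ℝ) : S130.dd (rg P) (rg' P) (P.L x) (P.L y) =
    SP.dd P.r P.r' x y * S130.dd P.g (g' P) (P.L x) (P.L y) := by
  unfold S130.dd SP.dd
  by_cases h : x = y
  · subst h
    rw [if_pos rfl, if_pos rfl, if_pos rfl]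
    unfold rg'
    rw [P.g_L]
  · have h' : P.L x ≠ P.L y := fun e => h (L_inj P e)
    rw [if_neg h', if_neg h, if_neg h']
    unfold rg
    rw [P.g_L, P.g_L]
    have h0 : x - y ≠ 0 := sub_ne_zero.2 h
    field_simp

/-- **the pairwise identity** -/
lemma pair (x y : ℝ) : S130.dd (q P) (q' P) (P.L x) (P.L y) / (P.L x * P.L y) =
    wσ P x y * S130.dd P.g (g' P) (P.L x) (P.L y) ^ 2 -
      (SP.dd P.r P.r' x y * S130.dd P.g (g' P) (P.L x) (P.L y)) ^ 2 := by
  have hLx := (P.L_pos x).ne'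
  have hLy := (P.L_pos y).ne'
  have rx := P.r_eq x
  have ry := P.r_eq y
  unfold wσ S130.dd SP.dd
  by_cases h : x = y
  · subst h
    simp only [if_true]
    unfold q'
    rw [P.g_L, g'_L]
    have hL' := (P.L'_pos x).ne'
    -- `r' L + r L' = L`
    have hd : P.r' x * P.L x + P.r x * P.L' x = P.L x := by
      have h1 : HasDerivAt (fun s => P.r s * P.L s) (P.r' x * P.L x + P.r x * P.L' x) x :=
        (P.hr x).mul (P.hL x)
      have h2 : (fun s => P.r s * P.L s) = P.t := funext P.r_eq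
      rw [h2] at h1
      exact h1.unique (P.ht x)
    have e1 : P.r x = P.L x * (1 - P.r' x) / P.L' x := by
      rw [eq_div_iff hL']
      linarith
    rw [e1]
    field_simp
    ring
  · have h' : P.L x ≠ P.L y := fun e => h (L_inj P e)
    rw [if_neg h', if_neg h, if_neg h', if_neg h]
    unfold q
    rw [P.g_L, P.g_L]
    have h0 : x - y ≠ 0 := sub_ne_zero.2 h
    have h1 : P.L x - P.L y ≠ 0 := sub_ne_zero.2 h'
    rw [← rx, ← ry]
    field_simp
    ring

variable {P} {n : ℕ} {φ V : E n → ℝ} {a b M κ : ℝ} {U : E n → Matrix (Fin n) (Fin n) ℝ}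
  {s : E n → Fin n → ℝ}

lemma spec_Fr (hF : Fr P φ U s) : S.Spec (hess φ) U (fun z k => P.L (s z k)) :=
  ⟨hF.orth, hF.dec⟩

lemma GG_eq (_hF : Fr P φ U s) (z : E n) :
    GG U s z = fm P.g (U z) (fun k => P.L (s z k)) := by
  unfold GG fc fm
  simp only [P.g_L]

/-- a.e. the derivative of `G` in the eigenframe -/
lemma uu_eq (h : BP φ V a b M κ) (hF : Fr P φ U s) {z : E n}
    (hz : ∀ i j, DifferentiableAt ℝ (fun y => hess φ y i j) z) (k i j : Fin n) :
    uu U s k z i j = S130.dd P.g (g' P) (P.L (s z i)) (P.L (s z j)) *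
      ((U z)ᵀ * D3 φ k z * U z) i j := by
  have hS := spec_Fr hF
  have hsp := spec_of h hS
  have hac : a ≤ max a b := le_max_left _ _
  have hdec : ∀ y, SP620.Dec (hess φ y) (U y) (fun k => P.L (s y k)) := fun y =>
    ⟨hsp.orth y, hsp.eq y⟩
  have hG : ∀ y, GG U s y = SP620.mf P.g (hess φ y) := fun y => by
    rw [GG_eq hF, (hdec y).mf]
  have hpd : pdM k (GG U s) z = SP620.DK P.g (g' P) (U z) (fun k => P.L (s z k)) (D3 φ k z) := by
    ext i j
    show fderiv ℝ (fun y => GG U s y i j) z (ei k) = _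
    simp only [hG]
    have h1 := SP620.hasFD_mf (A := hess φ) (z := z) (U := U z) (m := fun k => P.L (s z k)) hac
      (F := P.g) (F' := g' P)
      (fun x hx => (hasDeriv_g P (h.a_pos.trans_le hx.1)).hasDerivWithinAt)
      ((g'_cont P).mono fun x hx => h.a_pos.trans_le hx.1)
      (Eventually.of_forall fun y => ⟨U y, fun k => P.L (s y k), hdec y, hsp.mem y⟩)
      (hdec z) (hsp.mem z) (fun i j => (hz i j).hasFDerivAt) i j
    rw [h1.fderiv, SP620.DKL_apply]
    rfl
  unfold uu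
  rw [hpd, SP620.DK_frame (hsp.orth z)]

/-- **StmtMA** from the energy inequality -/
theorem stmtMA_of (hEN : StmtEN) : StmtMA := by
  intro P n φ V c C a b M κ hV h U s hF
  have := gQ_prob (n := n)
  have hS := spec_Fr hF
  have hsp := spec_of h hS
  have hac : a ≤ max a b := le_max_left _ _
  have hmbl := mbl_hess h hS
  have hH : MBM (gQ n) (hess φ) := fun i j => (hmbl i j).bm
  have hD := fun a => mbm_DA (μ := gQ n) hmbl a
  obtain ⟨hint, hle⟩ := hEN n φ V c C a b M κ hV h U (fun z k => P.L (s z k)) hS (q P) (q' P)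
    (fun x hx => hasDeriv_q P hx) (q'_cont P) (q'_mono P) (fun x hx => q_nonneg P hx)
  have hbm2 : BM (gQ n) fun z => ∑ k, ∑ i, ∑ j,
      (S130.dd (rg P) (rg' P) (P.L (s z i)) (P.L (s z j)) *
        ((U z)ᵀ * D3 φ k z * U z) i j) ^ 2 := by
    refine BM.sum _ fun k _ => ?_
    have h1 : MBM (gQ n) fun z => schur (U z)
        (fun i j => S130.dd (rg P) (rg' P) (P.L (s z i)) (P.L (s z j))) (D3 φ k z) :=
      schur_mbm (μ := gQ n) hac hsp hH (q := rg P) (q' := rg' P)
      (fun x hx => (hasDeriv_rg P (h.a_pos.trans_le hx.1)).hasDerivWithinAt)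
      ((rg'_cont P).mono fun x hx => h.a_pos.trans_le hx.1) (hD k)
    have h2 : BM (gQ n) fun z => ∑ i, ∑ j, schur (U z)
        (fun i j => S130.dd (rg P) (rg' P) (P.L (s z i)) (P.L (s z j))) (D3 φ k z) i j *
        schur (U z)
        (fun i j => S130.dd (rg P) (rg' P) (P.L (s z i)) (P.L (s z j))) (D3 φ k z) i j :=
      BM.sum _ fun i _ => BM.sum _ fun j _ => (h1 i j).mul (h1 i j)
    have e1 : (fun z => ∑ i, ∑ j, (S130.dd (rg P) (rg' P) (P.L (s z i)) (P.L (s z j)) *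
        ((U z)ᵀ * D3 φ k z * U z) i j) ^ 2) = fun z => ∑ i, ∑ j, schur (U z)
        (fun i j => S130.dd (rg P) (rg' P) (P.L (s z i)) (P.L (s z j))) (D3 φ k z) i j *
        schur (U z)
        (fun i j => S130.dd (rg P) (rg' P) (P.L (s z i)) (P.L (s z j))) (D3 φ k z) i j := by
      funext z
      have e2 := frob_orth (hsp.orth z) (schur (U z)
          (fun i j => S130.dd (rg P) (rg' P) (P.L (s z i)) (P.L (s z j))) (D3 φ k z))
      rw [schur_frame (hsp.orth z)] at e2
      simp only [of_apply] at e2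
      rw [e2]
      simp only [pow_two]
    rw [e1]
    exact h2
  have hpt : ∀ᵐ z ∂(gQ n), ∑ k, ∑ i, ∑ j, wσ P (s z i) (s z j) * uu U s k z i j ^ 2 =
      (∑ k, ∑ i, ∑ j, S130.dd (q P) (q' P) (P.L (s z i)) (P.L (s z j)) /
        (P.L (s z i) * P.L (s z j)) * ((U z)ᵀ * D3 φ k z * U z) i j ^ 2) +
      ∑ k, ∑ i, ∑ j, (S130.dd (rg P) (rg' P) (P.L (s z i)) (P.L (s z j)) *
        ((U z)ᵀ * D3 φ k z * U z) i j) ^ 2 := by
    filter_upwards [ae_diff hmbl] with z hz
    simp only [← Finset.sum_add_distrib]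
    refine Finset.sum_congr rfl fun k _ => Finset.sum_congr rfl fun i _ =>
      Finset.sum_congr rfl fun j _ => ?_
    rw [uu_eq h hF hz, pair, dd_rg]
    ring
  have hpt2 : ∀ᵐ z ∂(gQ n), ∑ k, ∑ i, ∑ j,
      (SP.dd P.r P.r' (s z i) (s z j) * uu U s k z i j) ^ 2 =
      ∑ k, ∑ i, ∑ j, (S130.dd (rg P) (rg' P) (P.L (s z i)) (P.L (s z j)) *
        ((U z)ᵀ * D3 φ k z * U z) i j) ^ 2 := by
    filter_upwards [ae_diff hmbl] with z hz
    refine Finset.sum_congr rfl fun k _ => Finset.sum_congr rfl fun i _ =>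
      Finset.sum_congr rfl fun j _ => ?_
    rw [uu_eq h hF hz, dd_rg]
    ring
  rw [Ex_eq, Ex_eq, Ex_eq, integral_congr_ae hpt, integral_congr_ae hpt2,
    integral_add hint hbm2.integrable]
  refine add_le_add ?_ le_rfl
  rw [Ex_eq, Ex_eq] at hle
  refine hle.trans (le_of_eq (integral_congr_ae (ae_of_all _ fun z => ?_)))
  refine Finset.sum_congr rfl fun k _ => ?_
  show q P (P.L (s z k)) / P.L (s z k) = P.r (s z k) ^ 2
  unfold q
  rw [P.g_L, mul_div_cancel_left₀ _ (P.L_pos _).ne']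

end Vale.Agent.P254.SP130
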