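import Vale.Agent.P254.SP.H130.MA
import Vale.Agent.P254.S.H130.IDY

/-! # P254, (SP_0): `StmtMA`, unconditional -/

namespace Vale.Agent.P254.SP130

/-- **StmtMA** -/
theorem stmtMA : Vale.Agent.P254.SP.StmtMA := stmtMA_of Vale.Agent.P254.S130.stmtEN

end Vale.Agent.P254.SP130
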